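import Mathlib

/-!
P171 helper: almost every configuration of `N` points of Euclidean 3-space consists of distinct
points (the diagonals `{x | x i = x j}`, `i ≠ j`, are proper linear subspaces, hence null).
-/

open MeasureTheory Set

namespace Vale.Agent.H43.P171

/-- The diagonal `{x | x i = x j}` is a null set for `i ≠ j`. -/
theorem diag_null (N : ℕ) (i j : Fin N) (hij : i ≠ j) :
    (volume : Measure (Fin N → EuclideanSpace ℝ (Fin 3))) {x | x i = x j} = 0 := by
  classical
  let f : (Fin N → EuclideanSpace ℝ (Fin 3)) →ₗ[ℝ] EuclideanSpace ℝ (Fin 3) :=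
    (LinearMap.proj i : (Fin N → EuclideanSpace ℝ (Fin 3)) →ₗ[ℝ] EuclideanSpace ℝ (Fin 3))
      - (LinearMap.proj j : (Fin N → EuclideanSpace ℝ (Fin 3)) →ₗ[ℝ] EuclideanSpace ℝ (Fin 3))
  have hset : {x : Fin N → EuclideanSpace ℝ (Fin 3) | x i = x j} = (LinearMap.ker f : Set _) := by
    ext x
    simp [f, sub_eq_zero]
  rw [hset]
  apply Measure.addHaar_submodule
  intro htop
  have hmem : (Pi.single i (EuclideanSpace.single 0 (1 : ℝ)) :
      Fin N → EuclideanSpace ℝ (Fin 3)) ∈ LinearMap.ker f := by
    rw [htop]; trivial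
  simp [f, hij.symm] at hmem

/-- Almost every configuration consists of distinct points. -/
theorem ae_injective (N : ℕ) :
    ∀ᵐ x ∂(volume : Measure (Fin N → EuclideanSpace ℝ (Fin 3))), Function.Injective x := by
  have h : ∀ i j : Fin N, i ≠ j →
      ∀ᵐ x ∂(volume : Measure (Fin N → EuclideanSpace ℝ (Fin 3))), x i ≠ x j := by
    intro i j hij
    exact measure_eq_zero_iff_ae_notMem.mp (diag_null N i j hij)
  have h2 : ∀ᵐ x ∂(volume : Measure (Fin N → EuclideanSpace ℝ (Fin 3))),
      ∀ i j : Fin N, i ≠ j → x i ≠ x j := by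
    rw [ae_all_iff]; intro i
    rw [ae_all_iff]; intro j
    by_cases hij : i = j
    · exact Filter.Eventually.of_forall (fun x h => absurd hij h)
    · filter_upwards [h i j hij] with x hx _ using hx
  filter_upwards [h2] with x hx
  intro i j hxy
  by_contra hij
  exact hx i j hij hxy

/-- The same for the product measure written as `Measure.pi`. -/
theorem ae_injective_pi (N : ℕ) :
    ∀ᵐ x ∂(Measure.pi fun _ : Fin N => (volume : Measure (EuclideanSpace ℝ (Fin 3)))),
      Function.Injective x :=
  ae_injective N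

end Vale.Agent.H43.P171
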